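import Vale.Agent.P280.H812.X3Done
import Vale.Agent.P280.H93.Cor5Fin

namespace Vale.Agent.Results.P280.TorusHomogeneous

open Vale.Agent.P280.T Vale.Agent.P280.H127

/-- The Campana-Peternell conjecture for projective manifolds with a torus action. `X` is a
projective manifold with a torus action, with nef tangent bundle. `X` is homogeneous if: (1) some
one-parameter group of the torus acts on the tangent space at one fixed point of the torus by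
nontrivial homotheties; or (2) at one fixed point, the isolated source of some one-parameter group,
every weight is extremal and so is its negative; or (3) the fixed points of the torus are isolated
and at one isolated source of a one-parameter group every weight is a vertex of the convex hull of
all the tangent weights; or (4) the fixed points are isolated, the weights at each of them are
pairwise independent and of multiplicity one, and at one isolated source every weight is a vertex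
of the hull or lies on an edge of it; or (5) there is a fixed point with extremal weights only and
every other fixed point has an extremal weight that is negative for `l`. (6) If a one-parameter
group `l` has an isolated source at which all its weights are at most `a`, then at every fixed
point all its weights lie in `[-a, a]`, and every tangent vector of `l`-weight `a` is the value of
a global vector field. -/
theorem result {r : ℕ} {R : Type} [CommRing R] [Algebra ℂ R]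
    (𝒜 : ℕ × (Fin r → ℤ) → Submodule ℂ R) [GradedAlgebra 𝒜] (hX : IsTorusManifold 𝒜)
    (hN : NefOnRationalCurves 𝒜) :
    (∀ (l : (Fin r → ℤ) →+ ℤ) (p : R →ₐ[ℂ] ℂ) (μ : Fin r → ℤ) (a : ℤ), a ≠ 0 →
      ¬ IsVertex 𝒜 p → IsFixed 𝒜 p μ → (∀ χ, TangentWeight 𝒜 p μ χ → l χ = a) →
      IsHomogeneousManifold 𝒜 ∧ IsTransitive 𝒜) ∧
    (∀ (l : (Fin r → ℤ) →+ ℤ) (p : R →ₐ[ℂ] ℂ) (μ : Fin r → ℤ) (a : ℤ), IsSource 𝒜 l p μ a →
      (∀ χ, TangentWeight 𝒜 p μ χ → IsExtremal 𝒜 χ ∧ IsExtremal 𝒜 (-χ)) →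
      IsHomogeneousManifold 𝒜 ∧ IsTransitive 𝒜) ∧
    ((∀ x ν, ¬ IsVertex 𝒜 x → IsFixed 𝒜 x ν → ¬ TangentWeight 𝒜 x ν 0) →
      ∀ (l : (Fin r → ℤ) →+ ℤ) (p : R →ₐ[ℂ] ℂ) (μ : Fin r → ℤ) (a : ℤ), IsSource 𝒜 l p μ a →
      (∀ χ, TangentWeight 𝒜 p μ χ →
        ∃ l' : (Fin r → ℤ) →+ ℤ, ∀ y ξ ω, ¬ IsVertex 𝒜 y → IsFixed 𝒜 y ξ →
          TangentWeight 𝒜 y ξ ω → ω ≠ χ → l' ω < l' χ) →
      IsHomogeneousManifold 𝒜 ∧ IsTransitive 𝒜) ∧
    ((∀ x ν, ¬ IsVertex 𝒜 x → IsFixed 𝒜 x ν → ¬ TangentWeight 𝒜 x ν 0) →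
      (∀ x ν ω ω', ¬ IsVertex 𝒜 x → IsFixed 𝒜 x ν → TangentWeight 𝒜 x ν ω →
        TangentWeight 𝒜 x ν ω' → (∃ a b : ℤ, a ≠ 0 ∧ b ≠ 0 ∧ a • ω = b • ω') → ω = ω') →
      (∀ x ν ω, ¬ IsVertex 𝒜 x → IsFixed 𝒜 x ν → TangentWeight 𝒜 x ν ω →
        ∀ v v' : R →ₗ[ℂ] ℂ, IsTangent x v → HasWeight 𝒜 ν ω v → IsTangent x v' →
          HasWeight 𝒜 ν ω v' → ∃ c c' : ℂ, (c ≠ 0 ∨ c' ≠ 0) ∧ ∀ h, c * v h + c' * v' h = 0) →
      ∀ (l : (Fin r → ℤ) →+ ℤ) (p : R →ₐ[ℂ] ℂ) (μ : Fin r → ℤ) (a : ℤ), IsSource 𝒜 l p μ a →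
      (∀ χ, TangentWeight 𝒜 p μ χ →
        ∃ (l' : (Fin r → ℤ) →+ ℤ) (δ : Fin r → ℤ), 0 < l' χ ∧ ∀ y ξ ω, ¬ IsVertex 𝒜 y →
          IsFixed 𝒜 y ξ → TangentWeight 𝒜 y ξ ω →
            l' ω ≤ l' χ ∧ (l' ω = l' χ → ∃ a b : ℤ, b ≠ 0 ∧ b • (ω - χ) = a • δ)) →
      IsHomogeneousManifold 𝒜 ∧ IsTransitive 𝒜) ∧
    (∀ (p : R →ₐ[ℂ] ℂ) (μ : Fin r → ℤ) (l : (Fin r → ℤ) →+ ℤ), ¬ IsVertex 𝒜 p →
      IsFixed 𝒜 p μ → (∀ χ, TangentWeight 𝒜 p μ χ → IsExtremal 𝒜 χ) →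
      (∀ x ν, ¬ IsVertex 𝒜 x → IsFixed 𝒜 x ν → ¬ SamePoint 𝒜 p x →
        ∃ χ, TangentWeight 𝒜 x ν χ ∧ IsExtremal 𝒜 χ ∧ l χ < 0) →
      IsHomogeneousManifold 𝒜 ∧ IsTransitive 𝒜) ∧
    (∀ (l : (Fin r → ℤ) →+ ℤ) (p : R →ₐ[ℂ] ℂ) (μ : Fin r → ℤ) (a : ℤ), 0 < a →
      IsSource 𝒜 l p μ a → ∀ (x : R →ₐ[ℂ] ℂ) (ν : Fin r → ℤ), ¬ IsVertex 𝒜 x → IsFixed 𝒜 x ν →
        (∀ χ, TangentWeight 𝒜 x ν χ → -a ≤ l χ ∧ l χ ≤ a) ∧
        ∀ χ, l χ = a → ∀ v : R →ₗ[ℂ] ℂ, IsTangent x v → HasWeight 𝒜 ν χ v →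
          ∃ D : Derivation ℂ R R, (∀ d m, ∀ h ∈ 𝒜 (d, m), D h ∈ 𝒜 (d, m - χ)) ∧
            ∀ h : R, x (D h) = v h) := by
  refine ⟨?_, ?_, ?_, ?_, ?_, ?_⟩
  · intro l p μ a ha hp0 hp h1
    exact Vale.Agent.P280.H812.homothety_ne Vale.Agent.P280.H812.rowG_all hX hN ha hp0 hp h1
  · intro l p μ a hs h1
    exact Vale.Agent.P280.H455.cor2 hX hN hs h1
  · intro hiso l p μ a hs h1
    exact Vale.Agent.P280.H93.cor4 hX hN hiso hs h1
  · intro hiso hind hmult l p μ a hs h1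
    exact Vale.Agent.P280.H93.cor5 hX hN hiso hind hmult hs h1
  · intro p μ l hp0 hp h1 h2
    exact theoremII_full hX hN hp0 hp h1 l h2
  · intro l p μ a ha hs x ν hx hx'
    exact Vale.Agent.P280.H812.theoremI_full hX hN ha hs hx hx'

end Vale.Agent.Results.P280.TorusHomogeneous
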